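import Vale.Agent.P253J.U

/-! m is positive, so a ball inside the bounded set W has bounded radius (BddAbove; z + t • single 0 1). dl_ball: a small ball in Ω is good; glueF over the subtype of good radii (concentric balls are convex, uniq at z), their union is ball z (dl ..) (exists_lt_of_lt_csSup). dl_cont: dl (ψ z) z - dist z w ≤ dl (ψ w) w for z, w in Ω: if the left side is positive restrict the lift of dl_ball at z to ball w (dl - dist z w); its value at w is ψ w by uniq on ball z _ ∩ Ω (convex); so LipschitzOnWith 1 (LipschitzOnWith.of_le_add or similar). -/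

namespace Vale.Agent.P253

open Complex Matrix Metric Set Filter Topology MeasureTheory
open scoped ContDiff ComplexConjugate ComplexOrder ENNReal Manifold

variable {n m N : ℕ} {X : Type} [TopologicalSpace X] [ChartedSpace (E n) X]
  [IsManifold 𝓘(ℂ, E n) ω X] [T2Space X] {G : X → E n → M n} {h : X → E N} {Φ : E m → E N}
  {W Ω : Set (E m)} {ψ : E m → X}

omit [IsManifold 𝓘(ℂ, E n) ω X] [T2Space X] in
theorem JA_bdd (hm : 0 < m) (hW : Bornology.IsBounded W) (x : X) (z : E m) :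
    BddAbove {ρ | ∃ χ, Lf n h Φ W χ (ball z ρ) ∧ χ z = x} := by
  obtain ⟨R, hR⟩ := hW.subset_ball z
  refine ⟨max R 0, ?_⟩
  rintro ρ ⟨χ, h1, -⟩
  by_contra hc
  have h0 : 0 ≤ max R 0 := le_max_right _ _
  have e : dist (z + EuclideanSpace.single (⟨0, hm⟩ : Fin m) ((max R 0 : ℝ) : ℂ)) z = max R 0 := by
    rw [dist_eq_norm, add_sub_cancel_left]
    simp only [PiLp.norm_single, Complex.norm_real, Real.norm_eq_abs, abs_of_nonneg h0]
  have h2 := hR (h1.sub (mem_ball.2 (e.trans_lt (not_le.1 hc))))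
  rw [mem_ball, e] at h2
  exact absurd (le_max_left R 0) (not_le.2 h2)

theorem le_dl (hm : 0 < m) (hW : Bornology.IsBounded W) {χ : E m → X} {z : E m} {ρ : ℝ}
    (h1 : Lf n h Φ W χ (ball z ρ)) : ρ ≤ dl n h Φ W (χ z) z := by
  exact le_csSup (JA_bdd hm hW _ z) ⟨χ, h1, rfl⟩

theorem dl_ball (hS : Std G h) (hm : 0 < m) (hW : Bornology.IsBounded W) (h1 : Lf n h Φ W ψ Ω)
    {z : E m} (hz : z ∈ Ω) : 0 < dl n h Φ W (ψ z) z ∧
      ∃ χ, Lf n h Φ W χ (ball z (dl n h Φ W (ψ z) z)) ∧ χ z = ψ z := by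
  haveI : Nonempty X := ⟨ψ z⟩
  obtain ⟨r, r0, hr⟩ := Metric.isOpen_iff.1 h1.hol.op z hz
  have h2 : Lf n h Φ W ψ (ball z r) := h1.mono isOpen_ball hr
  refine ⟨r0.trans_le (le_dl hm hW h2), ?_⟩
  choose χ c1 c2 using fun i : {ρ : ℝ // ∃ χ, Lf n h Φ W χ (ball z ρ) ∧ χ z = ψ z} => i.2
  obtain ⟨φ, f1, f2⟩ := glueF (V := fun i : {ρ : ℝ // ∃ χ, Lf n h Φ W χ (ball z ρ) ∧ χ z = ψ z} =>
      ball z i.1) c1 fun i j => by
    intro y hy
    have hzz : z ∈ ball z i.1 ∩ ball z j.1 :=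
      ⟨mem_ball_self (pos_of_mem_ball hy.1), mem_ball_self (pos_of_mem_ball hy.2)⟩
    exact uniq hS (c1 i) (c1 j) ((convex_ball _ _).inter (convex_ball _ _)).isPreconnected
      inter_subset_left inter_subset_right hzz ((c2 i).trans (c2 j).symm) hy
  refine ⟨φ, f1.mono isOpen_ball fun y hy => ?_, ?_⟩
  · obtain ⟨ρ, a, b⟩ := exists_lt_of_lt_csSup
      (s := {ρ | ∃ χ, Lf n h Φ W χ (ball z ρ) ∧ χ z = ψ z}) ⟨r, ψ, h2, rfl⟩ (mem_ball.1 hy)
    exact mem_iUnion.2 ⟨⟨ρ, a⟩, mem_ball.2 b⟩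
  · exact (f2 ⟨r, ψ, h2, rfl⟩ (mem_ball_self r0)).trans (c2 _)

theorem dl_cont (hS : Std G h) (hm : 0 < m) (hW : Bornology.IsBounded W) (h1 : Lf n h Φ W ψ Ω)
    (hc : Convex ℝ Ω) : ContinuousOn (fun z => dl n h Φ W (ψ z) z) Ω := by
  refine LipschitzOnWith.continuousOn (K := 1) (LipschitzOnWith.of_le_add fun z hz w hw => ?_)
  have w0 := (dl_ball hS hm hW h1 hw).1
  obtain ⟨z0, χ, c1, c2⟩ := dl_ball hS hm hW h1 hz
  by_cases hd : dist z w < dl n h Φ W (ψ z) z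
  · have hw' : w ∈ ball z (dl n h Φ W (ψ z) z) := mem_ball'.2 hd
    have e : χ w = ψ w := uniq hS c1 h1 ((convex_ball _ _).inter hc).isPreconnected
      inter_subset_left inter_subset_right ⟨mem_ball_self z0, hz⟩ c2 ⟨hw', hw⟩
    have c3 : Lf n h Φ W χ (ball w (dl n h Φ W (ψ z) z - dist z w)) :=
      c1.mono isOpen_ball (ball_subset_ball' (by rw [dist_comm w z]; linarith))
    have c4 := le_dl hm hW c3
    rw [e] at c4
    linarith
  · linarith [not_lt.1 hd]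

end Vale.Agent.P253
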