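import Vale.Agent.P253J.U

/-! Choose r p, χ p for p in the sphere. glueF over Option (sphere z d): none is (ψ, ball z d). χ p = ψ on ball p (r p) ∩ ball z d (convex, uniq). If ball p (r p) ∩ ball q (r q) is nonempty then dist p q < r p + r q, so a point of the segment p q lies in both balls (exists_dist_lt_lt), it lies in closedBall z d = closure (ball z d), so the open intersection meets ball z d; uniq on the convex intersection. The union is open and contains the compact closedBall z d, so it contains ball z (d + e) (IsCompact.exists_thickening_subset_open, thickening_closedBall); Lf.mono. -/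

namespace Vale.Agent.P253

open Complex Matrix Metric Set Filter Topology MeasureTheory
open scoped ContDiff ComplexConjugate ComplexOrder ENNReal Manifold

variable {n m N : ℕ} {X : Type} [TopologicalSpace X] [ChartedSpace (E n) X]
  [IsManifold 𝓘(ℂ, E n) ω X] [T2Space X] {G : X → E n → M n} {h : X → E N} {Φ : E m → E N}
  {W Ω : Set (E m)} {ψ : E m → X}

theorem ex_big (hS : Std G h) {z : E m} {d : ℝ} (hd : 0 < d) (h1 : Lf n h Φ W ψ (ball z d))
    (h2 : ∀ p, dist p z = d → Ex n h Φ W ψ (ball z d) p) :
    ∃ d' χ, d < d' ∧ Lf n h Φ W χ (ball z d') ∧ χ z = ψ z := by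
  classical
  haveI : Nonempty X := ⟨ψ z⟩
  choose! r χ hL y hy he using h2
  have ha : ∀ p, dist p z = d → EqOn (χ p) ψ (ball p (r p) ∩ ball z d) := fun p hp =>
    uniq hS (hL p hp) h1 ((convex_ball _ _).inter (convex_ball _ _)).isPreconnected
      inter_subset_left inter_subset_right (hy p hp) (he p hp)
  have hr : ∀ p, dist p z = d → 0 < r p := fun p hp => pos_of_mem_ball (hy p hp).1
  have hb : ∀ p q, dist p z = d → dist q z = d →
      EqOn (χ p) (χ q) (ball p (r p) ∩ ball q (r q)) := by
    intro p q hp hq w hw
    have rp := hr p hp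
    have rq := hr q hq
    have hlt : dist p q < r p + r q := by
      have k1 := dist_triangle_left p q w
      have k2 := mem_ball.1 hw.1
      have k3 := mem_ball.1 hw.2
      linarith
    have hs : 0 < r p + r q := by linarith
    set t : ℝ := r p / (r p + r q) with ht
    have t0 : 0 < t := div_pos rp hs
    have t1 : 0 < 1 - t := by
      rw [ht, sub_pos, div_lt_one hs]
      linarith
    have e1 : t * (r p + r q) = r p := div_mul_cancel₀ _ hs.ne'
    have u1 : AffineMap.lineMap p q t ∈ ball p (r p) := by
      rw [mem_ball, dist_lineMap_left, Real.norm_eq_abs, abs_of_pos t0]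
      nlinarith
    have u2 : AffineMap.lineMap p q t ∈ ball q (r q) := by
      rw [mem_ball, dist_lineMap_right, Real.norm_eq_abs, abs_of_pos t1]
      nlinarith
    have u3 : AffineMap.lineMap p q t ∈ closure (ball z d) := by
      rw [closure_ball z hd.ne']
      exact (convex_closedBall z d).lineMap_mem (mem_closedBall.2 hp.le) (mem_closedBall.2 hq.le)
        ⟨t0.le, by linarith⟩
    obtain ⟨v, ⟨v1, v2⟩, v3⟩ := mem_closure_iff.1 u3 _ (isOpen_ball.inter isOpen_ball) ⟨u1, u2⟩
    exact uniq hS (hL p hp) (hL q hq) ((convex_ball _ _).inter (convex_ball _ _)).isPreconnected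
      inter_subset_left inter_subset_right ⟨v1, v2⟩
      ((ha p hp ⟨v1, v3⟩).trans (ha q hq ⟨v2, v3⟩).symm) hw
  obtain ⟨F, hF, hE⟩ := glueF (n := n) (h := h) (Φ := Φ) (W := W)
    (ι := Option {p : E m // dist p z = d})
    (V := fun i => i.elim (ball z d) fun p => ball p.1 (r p.1))
    (χ := fun i => i.elim ψ fun p => χ p.1)
    (by
      rintro (_ | p)
      exacts [h1, hL p.1 p.2])
    (by
      rintro (_ | p) (_ | q)
      · exact fun _ _ => rfl
      · exact fun w hw => (ha q.1 q.2 ⟨hw.2, hw.1⟩).symm
      · exact ha p.1 p.2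
      · exact hb p.1 q.1 p.2 q.2)
  obtain ⟨e, e0, he'⟩ := (isCompact_closedBall z d).exists_thickening_subset_open hF.hol.op (by
    intro w hw
    rcases (mem_closedBall.1 hw).lt_or_eq with k | k
    · exact mem_iUnion.2 ⟨none, k⟩
    · exact mem_iUnion.2 ⟨some ⟨w, k⟩, mem_ball_self (hr w k)⟩)
  rw [thickening_closedBall e0 hd.le] at he'
  exact ⟨e + d, F, by linarith, hF.mono isOpen_ball he', hE none (mem_ball_self hd)⟩

end Vale.Agent.P253
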