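import Vale.Agent.P253J.U

/-! PD_oc: as bidisc_open in P253H/MaxC.lean. agree: for z in PD τ ∩ hartogsFig r use uniq on segments (convex_segment .isPreconnected): from 0 to hfill_p 0 (z 1) (first coordinate 0), then from hfill_p 0 (z 1) to z (second coordinate fixed, norm of the first one at most ‖z 0‖). minD: copy of hfill_max in P253H/Fill.lean with δ in place of infDist. -/

namespace Vale.Agent.P253

open Complex Matrix Metric Set Filter Topology MeasureTheory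
open scoped ContDiff ComplexConjugate ComplexOrder ENNReal Manifold

variable {n m N : ℕ} {X : Type} [TopologicalSpace X] [ChartedSpace (E n) X]
  [IsManifold 𝓘(ℂ, E n) ω X] [T2Space X] {G : X → E n → M n} {h : X → E N} {Φ : E 2 → E N}
  {φ ψ : E 2 → X} {r τ : ℝ}

theorem PD_oc (τ : ℝ) : IsOpen (PD τ) ∧ Convex ℝ (PD τ) := by
  have hc : ∀ i : Fin 2, Continuous fun z : E 2 => ‖z i‖ := fun i => by fun_prop
  have ho : ∀ (i : Fin 2) (r : ℝ), IsOpen {z : E 2 | ‖z i‖ < r} := fun i r =>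
    isOpen_lt (hc i) continuous_const
  have hv : ∀ (i : Fin 2) (r : ℝ), Convex ℝ {z : E 2 | ‖z i‖ < r} :=
    fun i r x hx y hy a b ha hb hab => by
      have := convex_ball (0 : ℂ) r (mem_ball_zero_iff.2 hx) (mem_ball_zero_iff.2 hy) ha hb hab
      exact mem_ball_zero_iff.1 this
  exact ⟨(ho 0 τ).inter (ho 1 1), (hv 0 τ).inter (hv 1 1)⟩

theorem agree (hS : Std G h) (r0 : 0 < r) (t0 : 0 < τ) (h1 : Lf n h Φ bidisc φ (hartogsFig r))
    (h2 : Lf n h Φ bidisc ψ (PD τ)) (h3 : ψ 0 = φ 0) : EqOn ψ φ (PD τ ∩ hartogsFig r) := by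
  intro z hz
  have cb : ∀ (i : Fin 2) (c : ℂ) (ρ : ℝ), Convex ℝ {y : E 2 | y i ∈ closedBall c ρ} :=
    fun i c ρ x hx y hy a b ha hb hab => convex_closedBall c ρ hx hy ha hb hab
  have z0 : ‖z 0‖ < τ := hz.1.1
  have z1 : ‖z 1‖ < 1 := hz.1.2
  have z2 : ‖z 0‖ < 1 := hz.2.1
  have e1 : EqOn ψ φ ({y : E 2 | y 0 ∈ closedBall (0 : ℂ) 0} ∩
      {y : E 2 | y 1 ∈ closedBall (0 : ℂ) ‖z 1‖}) := by
    refine uniq hS h2 h1 ((cb 0 0 0).inter (cb 1 0 ‖z 1‖)).isPreconnected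
      (fun y hy => ?_) (fun y hy => ?_) (z := 0) ⟨by simp, by simp⟩ h3
    · have a0 : ‖y 0‖ ≤ 0 := mem_closedBall_zero_iff.1 hy.1
      have a1 : ‖y 1‖ ≤ ‖z 1‖ := mem_closedBall_zero_iff.1 hy.2
      exact ⟨a0.trans_lt t0, a1.trans_lt z1⟩
    · have a0 : ‖y 0‖ ≤ 0 := mem_closedBall_zero_iff.1 hy.1
      have a1 : ‖y 1‖ ≤ ‖z 1‖ := mem_closedBall_zero_iff.1 hy.2
      exact ⟨a0.trans_lt one_pos, a1.trans_lt z1, Or.inl (a0.trans_lt r0)⟩
  have e2 : ψ (hfill_p 0 (z 1)) = φ (hfill_p 0 (z 1)) :=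
    e1 ⟨by simp [hfill_0], by simp [hfill_1]⟩
  refine uniq hS h2 h1 ((cb 0 0 ‖z 0‖).inter (cb 1 (z 1) 0)).isPreconnected
    (fun y hy => ?_) (fun y hy => ?_) (z := hfill_p 0 (z 1))
    ⟨by simp [hfill_0], by simp [hfill_1]⟩ e2 ⟨by simp, by simp⟩
  · have a0 : ‖y 0‖ ≤ ‖z 0‖ := mem_closedBall_zero_iff.1 hy.1
    have a1 : y 1 = z 1 := by simpa using hy.2
    exact ⟨a0.trans_lt z0, by rw [a1]; exact z1⟩
  · have a0 : ‖y 0‖ ≤ ‖z 0‖ := mem_closedBall_zero_iff.1 hy.1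
    have a1 : y 1 = z 1 := by simpa using hy.2
    refine ⟨a0.trans_lt z2, by rw [a1]; exact z1, ?_⟩
    rcases hz.2.2.2 with h4 | h4
    · exact Or.inl (a0.trans_lt h4)
    · exact Or.inr (by rw [a1]; exact h4)

theorem minD {Ω : Set (E 2)} {δ : E 2 → ℝ} (hc : ContinuousOn δ Ω) (hp : ∀ z ∈ Ω, 0 < δ z)
    (hm : ∀ z a : E 2, (∀ ζ : ℂ, ‖ζ‖ ≤ 1 → z + ζ • a ∈ Ω) →
      -Real.log (δ z) ≤ Real.circleAverage (fun ζ => -Real.log (δ (z + ζ • a))) 0 1)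
    {w : ℂ} {s d : ℝ} (hs : 0 < s) (hd : 0 < d) (h1 : ∀ ζ : ℂ, ‖ζ‖ ≤ s → hfill_p w ζ ∈ Ω)
    (h2 : ∀ ζ : ℂ, ‖ζ‖ = s → d ≤ δ (hfill_p w ζ)) (ζ : ℂ) (hζ : ‖ζ‖ ≤ s) :
    d ≤ δ (hfill_p w ζ) := by
  have pos : ∀ ζ : ℂ, ‖ζ‖ ≤ s → 0 < δ (hfill_p w ζ) := fun ζ h => hp _ (h1 ζ h)
  have hc' : ContinuousOn (fun ζ : ℂ => δ (hfill_p w ζ)) (closedBall 0 s) :=
    hc.comp (Continuous.continuousOn (by unfold hfill_p; fun_prop))
      fun ζ h => h1 ζ (mem_closedBall_zero_iff.1 h)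
  have key := maxc (u := fun ζ => -Real.log (δ (hfill_p w ζ))) hs
    (hc'.log fun ζ h => (pos ζ (mem_closedBall_zero_iff.1 h)).ne').neg
    (fun c ρ hρ hb => by
      have h3 := hm (hfill_p w c) ((ρ : ℂ) • EuclideanSpace.single 1 (1 : ℂ)) fun ζ h => by
        rw [hfill_line]
        refine h1 _ (mem_closedBall_zero_iff.1 (hb ?_))
        rw [mem_closedBall_iff_norm, add_sub_cancel_right, norm_mul, Complex.norm_real,
          Real.norm_of_nonneg hρ.le]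
        exact mul_le_of_le_one_right hρ.le h
      simp only [hfill_line] at h3
      rw [Real.circleAverage_eq_circleAverage_zero_one]
      exact h3)
    (C := -Real.log d) (fun ζ h => neg_le_neg (Real.log_le_log hd (h2 ζ h))) ζ hζ
  exact (Real.log_le_log_iff hd (pos ζ hζ)).1 (neg_le_neg_iff.1 key)

end Vale.Agent.P253
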