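import Vale.Agent.P253J.F1

/-! K = {z in PD τ, ‖z 1‖ ≤ s} is convex. Choose χ z from h4. glueF over Option K: none is φ on A = {w in bidisc, 1 - r < ‖w 1‖} (Lf.mono), some z is χ z on ball z d. (a) χ z = ψ on ball z d ∩ PD τ (convex, uniq at z). (b) balls at z, y: if they meet, midpoint z y lies in both and in PD τ, uniq on the convex intersection. (c) w in ball z d ∩ A: the segment from hfill_p (z 0) (w 1) to w lies in ball z d ∩ A, its first point lies in PD τ ∩ hartogsFig r (agree, (a)); uniq. The union contains PD (τ + d / 2): if ‖w 1‖ ≤ 1 - r take z = hfill_p (c * w 0) (w 1), c = τ / (τ + d / 2) (hfill_dist, hfill_eta). The value at 0 is χ 0 0 = ψ 0 = φ 0. -/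

namespace Vale.Agent.P253

open Complex Matrix Metric Set Filter Topology MeasureTheory
open scoped ContDiff ComplexConjugate ComplexOrder ENNReal Manifold

variable {n m N : ℕ} {X : Type} [TopologicalSpace X] [ChartedSpace (E n) X]
  [IsManifold 𝓘(ℂ, E n) ω X] [T2Space X] {G : X → E n → M n} {h : X → E N} {Φ : E 2 → E N}
  {φ ψ : E 2 → X} {r τ : ℝ}

theorem stepF (hS : Std G h) (r0 : 0 < r) (t0 : 0 < τ) {s d : ℝ} (s1 : 1 - r ≤ s) (s0 : 0 ≤ s)
    (hd : 0 < d) (hτ : τ + d / 2 ≤ 1) (h1 : Lf n h Φ bidisc φ (hartogsFig r))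
    (h2 : Lf n h Φ bidisc ψ (PD τ)) (h3 : ψ 0 = φ 0)
    (h4 : ∀ z ∈ PD τ, ‖z 1‖ ≤ s → ∃ χ, Lf n h Φ bidisc χ (ball z d) ∧ χ z = ψ z) :
    ∃ χ, Lf n h Φ bidisc χ (PD (τ + d / 2)) ∧ χ 0 = φ 0 := by
  have _ : Nonempty X := ⟨φ 0⟩
  obtain ⟨-, cτ⟩ := PD_oc τ
  choose! χ hχ hv using h4
  let K : Type := {z : E 2 // z ∈ PD τ ∧ ‖z 1‖ ≤ s}
  let A : Set (E 2) := PD 1 ∩ {w | 1 - r < ‖w 1‖}
  have hA : A ⊆ hartogsFig r := fun w hw => ⟨hw.1.1, hw.1.2, Or.inr hw.2⟩
  have lA : Lf n h Φ bidisc φ A :=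
    h1.mono ((PD_oc 1).1.inter (isOpen_lt continuous_const (by fun_prop))) hA
  have a : ∀ z : K, EqOn (χ z) ψ (ball z.1 d ∩ PD τ) := fun z =>
    uniq hS (hχ z z.2.1 z.2.2) h2 ((convex_ball _ _).inter cτ).isPreconnected inter_subset_left
      inter_subset_right ⟨mem_ball_self hd, z.2.1⟩ (hv z z.2.1 z.2.2)
  have b : ∀ z y : K, EqOn (χ z) (χ y) (ball z.1 d ∩ ball y.1 d) := fun z y w hw => by
    have hzy : dist z.1 y.1 < 2 * d := by
      have := dist_triangle_left z.1 y.1 w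
      linarith [mem_ball.1 hw.1, mem_ball.1 hw.2]
    have m1 : midpoint ℝ z.1 y.1 ∈ ball z.1 d := by
      rw [mem_ball, dist_midpoint_left]
      norm_num
      linarith
    have m2 : midpoint ℝ z.1 y.1 ∈ ball y.1 d := by
      rw [mem_ball, dist_midpoint_right]
      norm_num
      linarith
    have m3 := cτ.midpoint_mem z.2.1 y.2.1
    exact uniq hS (hχ z z.2.1 z.2.2) (hχ y y.2.1 y.2.2)
      ((convex_ball _ _).inter (convex_ball _ _)).isPreconnected inter_subset_left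
      inter_subset_right ⟨m1, m2⟩ ((a z ⟨m1, m3⟩).trans (a y ⟨m2, m3⟩).symm) hw
  have c : ∀ z : K, EqOn (χ z) φ (ball z.1 d ∩ A) := fun z w hw => by
    have p1 : hfill_p (z.1 0) (w 1) ∈ ball z.1 d := by
      have e : hfill_p (z.1 0) (w 1) - z.1 = (w 1 - z.1 1) • EuclideanSpace.single 1 (1 : ℂ) := by
        conv_lhs => rw [← hfill_eta z.1]
        simp only [hfill_0]
        unfold hfill_p
        module
      rw [mem_ball_iff_norm, e, norm_smul]
      have := PiLp.norm_apply_le (w - z.1) 1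
      simp only [PiLp.sub_apply] at this
      simpa using this.trans_lt (mem_ball_iff_norm.1 hw.1)
    have p2 : hfill_p (z.1 0) (w 1) ∈ PD τ := ⟨by rw [hfill_0]; exact z.2.1.1,
      by rw [hfill_1]; exact hw.2.1.2⟩
    have p3 : hfill_p (z.1 0) (w 1) ∈ A :=
      ⟨⟨p2.1.trans_le (by linarith), p2.2⟩, by
        change 1 - r < ‖hfill_p (z.1 0) (w 1) 1‖
        rw [hfill_1]
        exact hw.2.2⟩
    refine uniq hS (hχ z z.2.1 z.2.2) lA (convex_segment (hfill_p (z.1 0) (w 1)) w).isPreconnected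
      ((convex_ball _ _).segment_subset p1 hw.1) (fun u hu =>
        ⟨(PD_oc 1).2.segment_subset p3.1 hw.2.1 hu, ?_⟩) (left_mem_segment ℝ _ _)
      ((a z ⟨p1, p2⟩).trans (agree hS r0 t0 h1 h2 h3 ⟨p2, hA p3⟩)) (right_mem_segment ℝ _ _)
    obtain ⟨x, y, -, -, hxy, rfl⟩ := hu
    change 1 - r < ‖(x • hfill_p (z.1 0) (w 1) + y • w) 1‖
    rw [PiLp.add_apply, PiLp.smul_apply, PiLp.smul_apply, hfill_1, ← add_smul, hxy, one_smul]
    exact hw.2.2
  obtain ⟨θ, hθ, hθ'⟩ := glueF (ι := Option K) (V := fun o => o.elim A fun z => ball z.1 d)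
    (χ := fun o => o.elim φ fun z => χ z)
    (fun o => by
      cases o with
      | none => exact lA
      | some z => exact hχ z z.2.1 z.2.2)
    (fun i j => by
      cases i with
      | none =>
        cases j with
        | none => exact fun _ _ => rfl
        | some y => exact fun w hw => (c y ⟨hw.2, hw.1⟩).symm
      | some z =>
        cases j with
        | none => exact c z
        | some y => exact b z y)
  have z0 : (0 : E 2) ∈ PD τ := ⟨by simpa using t0, by simp⟩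
  have z1 : ‖(0 : E 2) 1‖ ≤ s := by simpa using s0
  refine ⟨θ, hθ.mono (PD_oc _).1 fun w hw => ?_,
    (hθ' (some ⟨0, z0, z1⟩) (mem_ball_self hd)).trans ((hv 0 z0 z1).trans h3)⟩
  by_cases hw1 : 1 - r < ‖w 1‖
  · exact mem_iUnion.2 ⟨none, ⟨hw.1.trans_le hτ, hw.2⟩, hw1⟩
  have hp : 0 < τ + d / 2 := by positivity
  have hw0 : ‖w 0‖ < τ + d / 2 := hw.1
  refine mem_iUnion.2 ⟨some ⟨hfill_p (((τ / (τ + d / 2) : ℝ) : ℂ) * w 0) (w 1), ⟨?_, ?_⟩, ?_⟩, ?_⟩
  · rw [hfill_0, norm_mul, Complex.norm_real, Real.norm_of_nonneg (by positivity),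
      div_mul_eq_mul_div, div_lt_iff₀ hp]
    exact mul_lt_mul_of_pos_left hw0 t0
  · rw [hfill_1]
    exact hw.2
  · rw [hfill_1]
    exact (not_lt.1 hw1).trans s1
  · have e := hfill_dist (w 0) (((τ / (τ + d / 2) : ℝ) : ℂ) * w 0) (w 1)
    rw [hfill_eta] at e
    refine mem_ball.2 (e.trans_lt ?_)
    rw [← one_sub_mul, norm_mul, ← Complex.ofReal_one, ← Complex.ofReal_sub,
      Complex.norm_real, show 1 - τ / (τ + d / 2) = d / 2 / (τ + d / 2) by field_simp; ring,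
      Real.norm_of_nonneg (by positivity), div_mul_eq_mul_div, div_lt_iff₀ hp]
    nlinarith

end Vale.Agent.P253
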