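import Vale.Agent.P253J.U

/-! A lift near the touching point extends along the deformation. -/

namespace Vale.Agent.P253

open Complex Matrix Metric Set Filter Topology MeasureTheory
open scoped ContDiff ComplexConjugate ComplexOrder ENNReal Manifold

variable {n m N : ℕ} {X : Type} [TopologicalSpace X] [ChartedSpace (E n) X]
  [IsManifold 𝓘(ℂ, E n) ω X] [T2Space X] {G : X → E n → M n} {h : X → E N} {Φ : E m → E N}
  {W Ω : Set (E m)} {ψ : E m → X}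

theorem touch_ext (hS : Std G h) (h1 : Lf n h Φ W ψ Ω) {f b : ℂ → E m} (hT : Touch Ω f b)
    {r : ℝ} {χ : E m → X} (hr : 0 < r) (h2 : Lf n h Φ W χ (ball (f 0 + b 0) r))
    (h3 : ∃ᶠ ζ in 𝓝[≠] (0 : ℂ), χ (f ζ + b ζ) = ψ (f ζ + b ζ)) :
    ∃ t ∈ Ico (0 : ℝ) 1, f 0 + (t : ℂ) • b 0 ∈ ball (f 0 + b 0) r ∧
      χ (f 0 + (t : ℂ) • b 0) = ψ (f 0 + (t : ℂ) • b 0) := by
  have hc : Continuous fun q : ℂ × ℝ => f q.1 + (q.2 : ℂ) • b q.1 :=
    (hT.df.continuous.comp continuous_fst).add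
      ((continuous_ofReal.comp continuous_snd).smul (hT.db.continuous.comp continuous_fst))
  have ho : IsOpen ((fun q : ℂ × ℝ => f q.1 + (q.2 : ℂ) • b q.1) ⁻¹' ball (f 0 + b 0) r) :=
    isOpen_ball.preimage hc
  obtain ⟨e, he, hb⟩ := Metric.isOpen_iff.1 ho (0, 1) (by simpa using hr)
  set d : ℝ := min (e / 2) (1 / 2) with hd
  have d0 : 0 < d := lt_min (half_pos he) (by norm_num)
  have d1 : d ≤ 1 / 2 := min_le_right _ _
  have d2 : d < e := (min_le_left _ _).trans_lt (half_lt_self he)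
  have hev : ∀ᶠ ζ in 𝓝[≠] (0 : ℂ), ζ ≠ 0 ∧ ‖ζ‖ < d :=
    (eventually_mem_nhdsWithin).and (nhdsWithin_le_nhds
      (mem_of_superset (ball_mem_nhds (0 : ℂ) d0) fun _ hz => mem_ball_zero_iff.1 hz))
  obtain ⟨ζ, hζ, hz0, hzd⟩ := (h3.and_eventually hev).exists
  let γ : ℝ → E m := fun l => f (l * ζ) + ((1 - d + l * d : ℝ) : ℂ) • b (l * ζ)
  have hγ : Continuous γ :=
    hc.comp (show Continuous fun l : ℝ => (((l : ℂ) * ζ, 1 - d + l * d) : ℂ × ℝ) by fun_prop)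
  have hn : ∀ l ∈ Icc (0 : ℝ) 1, ‖(l : ℂ) * ζ‖ < d := fun l hl => by
    rw [norm_mul, norm_real, Real.norm_of_nonneg hl.1]
    exact (mul_le_of_le_one_left (norm_nonneg _) hl.2).trans_lt hzd
  have s2 : γ '' Icc 0 1 ⊆ ball (f 0 + b 0) r := by
    rintro _ ⟨l, hl, rfl⟩
    refine hb (a := ((l : ℂ) * ζ, 1 - d + l * d)) ?_
    rw [mem_ball, Prod.dist_eq, max_lt_iff, dist_zero_right, Real.dist_eq, abs_lt]
    have := mul_nonneg hl.1 d0.le
    have := mul_le_of_le_one_left d0.le hl.2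
    exact ⟨(hn l hl).trans d2, by dsimp only; linarith, by dsimp only; linarith⟩
  have s1 : γ '' Icc 0 1 ⊆ Ω := by
    rintro _ ⟨l, hl, rfl⟩
    have a1 := mul_nonneg hl.1 d0.le
    have a2 := mul_le_of_le_one_left d0.le hl.2
    refine hT.ins _ ⟨by linarith, by linarith⟩ _ (by linarith [hn l hl]) ?_
    rcases hl.2.lt_or_eq with h | h
    · exact Or.inl (by nlinarith)
    · exact Or.inr (by rw [h]; simpa using hz0)
  have e1 : γ 1 = f ζ + b ζ := by simp [γ]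
  have e0 : γ 0 = f 0 + ((1 - d : ℝ) : ℂ) • b 0 := by simp [γ]
  have hu := uniq hS h1 h2 (isPreconnected_Icc.image γ hγ.continuousOn) s1 s2
    (z := γ 1) ⟨1, right_mem_Icc.2 zero_le_one, rfl⟩ (by rw [e1, hζ])
  refine ⟨1 - d, ⟨by linarith, by linarith⟩, ?_, ?_⟩
  · rw [← e0]
    exact s2 ⟨0, left_mem_Icc.2 zero_le_one, rfl⟩
  · rw [← e0]
    exact (hu ⟨0, left_mem_Icc.2 zero_le_one, rfl⟩).symm

end Vale.Agent.P253
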